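import Vale.Agent.P235Q.ApCut

/-! P235: the cone over a space that embeds into `L₁`. -/

open Set Classical

noncomputable section

namespace Vale.Agent.P235.Ap

variable {V : Type} [Fintype V] {d : V → V → ℝ} {C : ℝ} {w : (V → Bool) → ℝ}

/-- The probability of a selection of cuts. -/
def wt (w : (V → Bool) → ℝ) (T : ℝ) (c : (V → Bool) → Bool) : ℝ :=
  ∏ η, if c η then 1 - Real.exp (-(w η / T)) else Real.exp (-(w η / T))

/-- The cell of a point. -/
def cell (c : (V → Bool) → Bool) (x : V) (η : V → Bool) : Bool := c η && η x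

theorem wt_nonneg (hw : ∀ η, 0 ≤ w η) {T : ℝ} (hT : 0 < T) (c : (V → Bool) → Bool) :
    0 ≤ wt w T c := Finset.prod_nonneg fun η _ => by
  split_ifs
  · exact sub_nonneg.2 (Real.exp_le_one_iff.2 (neg_nonpos.2 (div_nonneg (hw η) hT.le)))
  · exact (Real.exp_pos _).le

theorem wt_same (T : ℝ) (x y : V) :
    ∑ c, wt w T c * (if cell c x = cell c y then 1 else 0) = Real.exp (-(cs w x y / T)) := by
  have e1 : ∀ c : (V → Bool) → Bool, (if cell c x = cell c y then (1 : ℝ) else 0) =
      ∏ η, if (c η && η x) = (c η && η y) then 1 else 0 := fun c => by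
    rw [Finset.prod_boole]
    simp [cell, funext_iff]
  simp only [e1, wt, ← Finset.prod_mul_distrib]
  rw [← Fintype.prod_sum fun (η : V → Bool) (b : Bool) =>
    (if b then 1 - Real.exp (-(w η / T)) else Real.exp (-(w η / T))) *
      if (b && η x) = (b && η y) then (1 : ℝ) else 0, cs, Finset.sum_div, ← Finset.sum_neg_distrib,
    Real.exp_sum]
  refine Finset.prod_congr rfl fun η _ => ?_
  by_cases h : η x = η y <;> simp [sp, h]

theorem wt_sum (T : ℝ) (x : V) : ∑ c, wt w T c = 1 := by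
  simpa [cs, sp] using wt_same (w := w) T x x

theorem cell_sum {κ : Type} [Fintype κ] [DecidableEq κ] (p q : κ) {a b : ℝ} (ha : 0 ≤ a) (hb : 0 ≤ b) :
    ∑ z, |(if p = z then a else 0) - if q = z then b else 0| =
      if p = q then |a - b| else a + b := by
  by_cases h : p = q
  · subst h
    rw [if_pos rfl, Finset.sum_eq_single p (fun z _ hz => by simp [hz.symm]) (by simp)]
    simp
  · rw [if_neg h, ← Finset.sum_subset (Finset.subset_univ {p, q}) fun z _ hz => by
      simp only [Finset.mem_insert, Finset.mem_singleton, not_or] at hz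
      simp [Ne.symm hz.1, Ne.symm hz.2], Finset.sum_pair h]
    simp [h, Ne.symm h, abs_of_nonneg ha, abs_of_nonneg hb]

theorem scale_sum (hw : ∀ η, 0 ≤ w η) {T : ℝ} (hT : 0 < T) (x y : V) {a b : ℝ} (ha : 0 ≤ a)
    (hb : 0 ≤ b) : ∑ c, ∑ z, |wt w T c * (if cell c x = z then a else 0) -
      wt w T c * if cell c y = z then b else 0| =
      Real.exp (-(cs w x y / T)) * |a - b| + (1 - Real.exp (-(cs w x y / T))) * (a + b) := by
  have e : ∀ c, ∑ z, |wt w T c * (if cell c x = z then a else 0) -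
      wt w T c * if cell c y = z then b else 0| = wt w T c * (a + b) +
        wt w T c * (if cell c x = cell c y then 1 else 0) * (|a - b| - (a + b)) := fun c => by
    simp only [← mul_sub, abs_mul, abs_of_nonneg (wt_nonneg hw hT c), ← Finset.mul_sum]
    rw [cell_sum _ _ ha hb]
    split_ifs <;> ring
  simp only [e, Finset.sum_add_distrib, ← Finset.sum_mul, wt_same, wt_sum T x]
  ring

/-- The tent of the scale `T`. -/
def tent (T s : ℝ) : ℝ := max 0 (min (s - T / 2) (4 * T - s))

/-- The scale is active. -/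
def act (T s : ℝ) : ℝ := if T / 2 < s ∧ s < 4 * T then 1 else 0

theorem act_sum (I : Finset ℤ) (s : ℝ) : ∑ i ∈ I, act (2 ^ i) s ≤ 3 := by
  simp only [act]
  rw [Finset.sum_boole]
  have h : (I.filter fun i : ℤ => (2 : ℝ) ^ i / 2 < s ∧ s < 4 * 2 ^ i) ⊆
      Finset.Icc (Int.log 2 s - 1) (Int.log 2 s + 1) := fun i hi => by
    obtain ⟨-, h1, h2⟩ := Finset.mem_filter.1 hi
    have h0 : 0 < s := lt_trans (by positivity) h1
    have h3 : i - 1 ≤ Int.log 2 s := (Int.zpow_le_iff_le_log (by norm_num) h0).1 (by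
      rw [zpow_sub_one₀ (by norm_num)]
      push_cast
      linarith)
    have h4 : Int.log 2 s < i + 2 := (Int.lt_zpow_iff_log_lt (by norm_num) h0).1 (by
      rw [zpow_add₀ (by norm_num)]
      push_cast
      linarith)
    exact Finset.mem_Icc.2 ⟨by omega, by omega⟩
  have h5 := Finset.card_le_card h
  rw [Int.card_Icc, show Int.log 2 s + 1 + 1 - (Int.log 2 s - 1) = 3 by ring] at h5
  exact_mod_cast h5

theorem tent_zero {T s : ℝ} (h : ¬ (T / 2 < s ∧ s < 4 * T)) : tent T s = 0 := by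
  unfold tent
  grind

theorem tent_lip (T s t : ℝ) : |tent T s - tent T t| ≤ |s - t| * (act T s + act T t) := by
  have h : |tent T s - tent T t| ≤ |s - t| := by
    unfold tent
    grind
  have h0 := abs_nonneg (s - t)
  unfold act
  split_ifs with h1 h2 h2
  · linarith
  · linarith
  · linarith
  · simp [tent_zero h1, tent_zero h2]

theorem tent_le {T s D E : ℝ} (hT : 0 < T) (hD : 0 ≤ D) (h0 : 0 ≤ E) (hE : 1 - D / T ≤ E) :
    (1 - E) * tent T s ≤ min s (4 * D) * act T s := by
  unfold act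
  split_ifs with h
  · have h1 : 0 ≤ tent T s := le_max_left _ _
    have h2 : tent T s ≤ s := max_le (by linarith) ((min_le_left _ _).trans (by linarith))
    have h3 : tent T s ≤ 4 * T := max_le (by linarith) ((min_le_right _ _).trans (by linarith))
    have h4 : D / T * (4 * T) = 4 * D := by field_simp
    have h5 : 0 ≤ D / T := div_nonneg hD hT.le
    rw [mul_one]
    exact le_min (by nlinarith) (by nlinarith)
  · simp [tent_zero h]

theorem tent_ge {T s t D δ : ℝ} (hT : 0 < T) (h1 : T ≤ s) (h2 : s < 2 * T) (ht : t ≤ s)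
    (hD : 0 ≤ D) (hδ : δ ≤ D) :
    min δ (s + t) ≤ 8 * ((1 - Real.exp (-(D / T))) * tent T s) := by
  have h3 : s / 2 ≤ tent T s := le_max_of_le_right (le_min (by linarith) (by linarith))
  set E := Real.exp (-(D / T)) with hE
  have h4 : E * (D / T + 1) ≤ 1 := by
    rw [hE, Real.exp_neg, inv_mul_le_iff₀ (Real.exp_pos _), mul_one]
    exact Real.add_one_le_exp _
  have h5 : E * (D + T) ≤ T := by
    have := mul_le_mul_of_nonneg_right h4 hT.le
    rw [mul_assoc, add_mul, div_mul_cancel₀ _ hT.ne'] at this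
    linarith
  have h6 : E ≤ 1 := Real.exp_le_one_iff.2 (neg_nonpos.2 (div_nonneg hD hT.le))
  have h7 : D ≤ (1 - E) * (D + s) := by nlinarith
  have h8 : (1 - E) * (s / 2) ≤ (1 - E) * tent T s := mul_le_mul_of_nonneg_left h3 (by linarith)
  rcases le_total D s with h | h
  · exact (min_le_left _ _).trans (by nlinarith)
  · have h9 : 1 / 2 ≤ 1 - E := by
      by_contra h9
      nlinarith
    exact (min_le_right _ _).trans (by nlinarith)

/-- The cone lemma. -/
theorem cone (h : EmbedsL1 d C) (hC : 1 ≤ C) {f : V → ℝ} (h0 : ∀ x, 0 ≤ f x)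
    (hf : ∀ x y, |f x - f y| ≤ d x y) : EmbedsL1 (fun x y => min (d x y) (f x + f y)) (240 * C) := by
  obtain ⟨w, hw, hd⟩ := toCuts h
  set I : Finset ℤ := Finset.univ.image fun x => Int.log 2 (f x) with hI
  have t0 : ∀ T s, 0 ≤ tent T s := fun _ _ => le_max_left _ _
  have hp : ∀ i : ℤ, (0 : ℝ) < 2 ^ i := fun i => by positivity
  refine ofFamily (ι := I × ((V → Bool) → Bool) × ((V → Bool) → Bool))
    (fun x j => wt w (2 ^ j.1.1) j.2.1 *
      if cell j.2.1 x = j.2.2 then 8 * tent (2 ^ j.1.1) (f x) else 0) fun x y => ?_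
  have hD := cs_nonneg hw x y
  have e0 : ∀ i : ℤ, 0 ≤ Real.exp (-(cs w x y / 2 ^ i)) := fun i => (Real.exp_pos _).le
  have e1 : ∀ i : ℤ, 0 ≤ 1 - Real.exp (-(cs w x y / 2 ^ i)) := fun i =>
    sub_nonneg.2 (Real.exp_le_one_iff.2 (neg_nonpos.2 (div_nonneg hD (hp i).le)))
  simp only [Fintype.sum_prod_type]
  simp only [scale_sum hw (hp _) x y (mul_nonneg (by norm_num : (0 : ℝ) ≤ 8) (t0 _ _))
    (mul_nonneg (by norm_num : (0 : ℝ) ≤ 8) (t0 _ _))]
  rw [Finset.sum_coe_sort I fun i => Real.exp (-(cs w x y / 2 ^ i)) *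
    |8 * tent (2 ^ i) (f x) - 8 * tent (2 ^ i) (f y)| + (1 - Real.exp (-(cs w x y / 2 ^ i))) *
      (8 * tent (2 ^ i) (f x) + 8 * tent (2 ^ i) (f y))]
  have k0 : ∀ i : ℤ, ∀ z, 0 ≤ (1 - Real.exp (-(cs w x y / 2 ^ i))) * tent (2 ^ i) (f z) :=
    fun i z => mul_nonneg (e1 i) (t0 _ _)
  constructor
  · have key : ∀ z z', (z = x ∧ z' = y ∨ z = y ∧ z' = x) → f z' ≤ f z → min (d x y) (f z + f z') ≤
        ∑ i ∈ I, (Real.exp (-(cs w x y / 2 ^ i)) *
          |8 * tent (2 ^ i) (f x) - 8 * tent (2 ^ i) (f y)| +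
            (1 - Real.exp (-(cs w x y / 2 ^ i))) *
              (8 * tent (2 ^ i) (f x) + 8 * tent (2 ^ i) (f y))) := fun z z' hz hl => by
      have k1 : ∀ i ∈ I, 0 ≤ Real.exp (-(cs w x y / 2 ^ i)) *
          |8 * tent (2 ^ i) (f x) - 8 * tent (2 ^ i) (f y)| +
            (1 - Real.exp (-(cs w x y / 2 ^ i))) *
              (8 * tent (2 ^ i) (f x) + 8 * tent (2 ^ i) (f y)) := fun i _ => by
        have := mul_nonneg (e0 i) (abs_nonneg (8 * tent (2 ^ i) (f x) - 8 * tent (2 ^ i) (f y)))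
        linarith [k0 i x, k0 i y]
      rcases (h0 z).eq_or_lt with h1 | h1
      · exact (min_le_right _ _).trans (le_trans (by linarith) (Finset.sum_nonneg k1))
      refine le_trans ?_ (Finset.single_le_sum k1 (Finset.mem_image_of_mem _ (Finset.mem_univ z)))
      have h2 := Int.zpow_log_le_self (b := 2) (by norm_num) h1
      have h3 := Int.lt_zpow_succ_log_self (b := 2) (by norm_num) (f z)
      rw [zpow_add_one₀ (by norm_num)] at h3
      push_cast at h2 h3
      refine (tent_ge (hp _) h2 (by linarith) hl hD (hd x y).1).trans ?_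
      have := mul_nonneg (e0 (Int.log 2 (f z))) (abs_nonneg
        (8 * tent (2 ^ Int.log 2 (f z)) (f x) - 8 * tent (2 ^ Int.log 2 (f z)) (f y)))
      rcases hz with ⟨rfl, rfl⟩ | ⟨rfl, rfl⟩
      · linarith [k0 (Int.log 2 (f z)) z']
      · linarith [k0 (Int.log 2 (f z)) z']
    rcases le_total (f y) (f x) with hl | hl
    · exact key x y (Or.inl ⟨rfl, rfl⟩) hl
    · rw [add_comm (f x)]
      exact key y x (Or.inr ⟨rfl, rfl⟩) hl
  · set ρ := min (d x y) (f x + f y) with hρ
    have r1 : |f x - f y| ≤ ρ := le_min (hf x y) (abs_le.2 ⟨by linarith [h0 x], by linarith [h0 y]⟩)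
    have r0 : 0 ≤ ρ := (abs_nonneg _).trans r1
    have r2 : ∀ z, f z ≤ f x + f y → min (f z) (4 * cs w x y) ≤ 4 * C * ρ := fun z hz => by
      rcases min_choice (d x y) (f x + f y) with k | k
      · exact (min_le_right _ _).trans (by rw [hρ, k]; linarith [(hd x y).2])
      · exact (min_le_left _ _).trans (by rw [← hρ] at k; nlinarith)
    have a0 : ∀ T s, 0 ≤ act T s := fun T s => by unfold act; split_ifs <;> norm_num
    refine (Finset.sum_le_sum (g := fun i : ℤ =>
      40 * C * ρ * (act (2 ^ i) (f x) + act (2 ^ i) (f y))) fun i _ => ?_).trans ?_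
    · have b1 := tent_lip (2 ^ i) (f x) (f y)
      have b2 : ∀ z, f z ≤ f x + f y → (1 - Real.exp (-(cs w x y / 2 ^ i))) * tent (2 ^ i) (f z) ≤
          4 * C * ρ * act (2 ^ i) (f z) := fun z hz =>
        (tent_le (hp i) hD (e0 i) (by linarith [Real.add_one_le_exp (-(cs w x y / 2 ^ i))])).trans
          (mul_le_mul_of_nonneg_right (r2 z hz) (a0 _ _))
      have b3 := mul_le_mul_of_nonneg_right (r1.trans (le_mul_of_one_le_left r0 hC))
        (add_nonneg (a0 (2 ^ i) (f x)) (a0 (2 ^ i) (f y)))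
      have b4 := mul_nonneg (e1 i) (abs_nonneg (tent (2 ^ i) (f x) - tent (2 ^ i) (f y)))
      rw [← mul_sub, abs_mul, abs_of_pos (by norm_num : (0 : ℝ) < 8)]
      linarith [b2 x (by linarith [h0 y]), b2 y (by linarith [h0 x])]
    · rw [← Finset.mul_sum, Finset.sum_add_distrib]
      have := mul_le_mul_of_nonneg_left (add_le_add (act_sum I (f x)) (act_sum I (f y)))
        (mul_nonneg (mul_nonneg (by norm_num : (0 : ℝ) ≤ 40) (zero_le_one.trans hC)) r0)
      linarith

end Vale.Agent.P235.Ap
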