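import Vale.Agent.P235.Concrete

/-! P235: embeddings into `L₁`, finite families of functions and sums of cuts. -/

open Set MeasureTheory Classical

noncomputable section

namespace Vale.Agent.P235.Ap

variable {V : Type} [Fintype V] {d : V → V → ℝ} {C : ℝ}

/-- The cut `η` separates `x` and `y`. -/
def sp (η : V → Bool) (x y : V) : ℝ := if η x = η y then 0 else 1

/-- The weighted sum of cuts. -/
def cs (w : (V → Bool) → ℝ) (x y : V) : ℝ := ∑ η, w η * sp η x y

omit [Fintype V] in
theorem sp_nonneg (η : V → Bool) (x y : V) : 0 ≤ sp η x y := by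
  unfold sp; split_ifs <;> norm_num

theorem cs_nonneg {w : (V → Bool) → ℝ} (hw : ∀ η, 0 ≤ w η) (x y : V) : 0 ≤ cs w x y :=
  Finset.sum_nonneg fun η _ => mul_nonneg (hw η) (sp_nonneg η x y)

omit [Fintype V] in
theorem ofFamily {ι : Type} [Fintype ι] (g : V → ι → ℝ)
    (h : ∀ x y, d x y ≤ ∑ i, |g x i - g y i| ∧ ∑ i, |g x i - g y i| ≤ C * d x y) :
    EmbedsL1 d C := by
  let _ : MeasurableSpace ι := ⊤
  have hm : ∀ x, MemLp (g x) 1 (Measure.count : Measure ι) := fun x => MemLp.of_discrete
  have e : ∀ x y, ‖(hm x).toLp _ - (hm y).toLp _‖ = ∑ i, |g x i - g y i| := fun x y => by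
    rw [← MemLp.toLp_sub, L1.norm_eq_integral_norm, integral_congr_ae
      (g := fun i => |g x i - g y i|), integral_count]
    filter_upwards [((hm x).sub (hm y)).coeFn_toLp] with i h
    rw [h, Pi.sub_apply, Real.norm_eq_abs]
  exact ⟨ι, ⊤, Measure.count, fun x => (hm x).toLp _, fun x y => by rw [e]; exact h x y⟩

/-- The level cut of a vector. -/
def lev (p : (V → ℝ) × ℝ) (z : V) : Bool := decide (p.2 < p.1 z)

omit [Fintype V] in
theorem lev_meas : Measurable (lev (V := V)) := measurable_pi_lambda _ fun z =>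
  measurable_to_bool (by
    have : (fun p : (V → ℝ) × ℝ => lev p z) ⁻¹' {true} = {p | p.2 < p.1 z} := by ext; simp [lev]
    rw [this]
    exact measurableSet_lt measurable_snd ((measurable_pi_apply z).comp measurable_fst))

/-- The length of the set of levels with a given cut. -/
def lw (η : V → Bool) (a : V → ℝ) : ℝ := (volume (Prod.mk a ⁻¹' (lev ⁻¹' {η}))).toReal

theorem lw_meas (η : V → Bool) : Measurable (lw η) :=
  (measurable_measure_prodMk_left (lev_meas (measurableSet_singleton η))).ennreal_toReal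

theorem lw_sum (a : V → ℝ) (x y : V) : ∑ η, lw η a * sp η x y = |a x - a y| := by
  have h2 : (fun t => lev (a, t)) ⁻¹' ↑(Finset.univ.filter fun η : V → Bool => η x ≠ η y) =
      Ico (min (a x) (a y)) (max (a x) (a y)) := by
    ext t
    by_cases h1 : t < a x <;> by_cases h2 : t < a y <;> simp [lev, h1, h2] <;> grind
  have h4 := sum_measure_preimage_singleton (μ := volume) (f := fun t => lev (a, t))
    (Finset.univ.filter fun η : V → Bool => η x ≠ η y) fun η _ =>
      (lev_meas.comp measurable_prodMk_left) (measurableSet_singleton η)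
  rw [h2, Real.volume_Ico, max_sub_min_eq_abs', abs_sub_comm] at h4
  rw [← ENNReal.toReal_ofReal (abs_nonneg (a x - a y)), abs_sub_comm, ← h4,
    ENNReal.toReal_sum fun η hη => ne_top_of_le_ne_top (h4.trans_ne ENNReal.ofReal_ne_top)
      (Finset.single_le_sum (f := fun η => volume ((fun t => lev (a, t)) ⁻¹' {η}))
        (fun _ _ => zero_le) hη), Finset.sum_filter]
  refine Finset.sum_congr rfl fun η _ => ?_
  unfold sp
  by_cases h : η x = η y
  · simp [h]
  · simp only [h, if_false, ne_eq, not_false_eq_true, if_true, mul_one]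
    rfl

theorem toCuts (h : EmbedsL1 d C) : ∃ w : (V → Bool) → ℝ, (∀ η, 0 ≤ w η) ∧
    ∀ x y, d x y ≤ cs w x y ∧ cs w x y ≤ C * d x y := by
  obtain ⟨Ω, _, μ, f, hf⟩ := h
  have hm : AEMeasurable (fun ω z => f z ω) μ :=
    aemeasurable_pi_lambda _ fun z => (Lp.aestronglyMeasurable (f z)).aemeasurable
  refine ⟨fun η => ∫ ω, lw η (fun z => f z ω) ∂μ,
    fun η => integral_nonneg fun ω => ENNReal.toReal_nonneg, fun x y => ?_⟩
  have hi : Integrable (fun ω => |f x ω - f y ω|) μ :=
    ((L1.integrable_coeFn (f x)).sub (L1.integrable_coeFn (f y))).abs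
  have h0 : ∀ η ω, 0 ≤ lw η (fun z => f z ω) * sp η x y := fun η ω =>
    mul_nonneg ENNReal.toReal_nonneg (sp_nonneg η x y)
  have h1 : ∀ η, Integrable (fun ω => lw η (fun z => f z ω) * sp η x y) μ := fun η => by
    refine hi.mono' (((lw_meas η).comp_aemeasurable hm).mul_const _).aestronglyMeasurable
      (Filter.Eventually.of_forall fun ω => (Real.norm_of_nonneg (h0 η ω)).trans_le ?_)
    rw [← lw_sum (fun z => f z ω) x y]
    exact Finset.single_le_sum (f := fun η => lw η (fun z => f z ω) * sp η x y)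
      (fun η _ => h0 η ω) (Finset.mem_univ η)
  have e : cs (fun η => ∫ ω, lw η (fun z => f z ω) ∂μ) x y = ‖f x - f y‖ := by
    simp only [cs, ← integral_mul_const]
    rw [← integral_finsetSum _ fun η _ => h1 η, L1.norm_eq_integral_norm]
    refine integral_congr_ae ?_
    filter_upwards [Lp.coeFn_sub (f x) (f y)] with ω h
    rw [h, Pi.sub_apply, Real.norm_eq_abs]
    exact lw_sum (fun z => f z ω) x y
  rw [e]
  exact hf x y

omit [Fintype V] in
theorem EmbedsL1.comap {W : Type} (h : EmbedsL1 d C) (φ : W → V) :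
    EmbedsL1 (fun x y => d (φ x) (φ y)) C :=
  let ⟨Ω, m, μ, f, hf⟩ := h
  ⟨Ω, m, μ, fun x => f (φ x), fun _ _ => hf _ _⟩

end Vale.Agent.P235.Ap
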