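import Vale.Agent.P235Q.ApCone

/-! P235: adding apices to a graph. -/

open Set Classical

noncomputable section

namespace Vale.Agent.P235.Ap

variable {V : Type} {d : V → V → ℝ} {C : ℝ}

theorem emb_zero (h : ∀ x y, d x y = 0) : EmbedsL1 d C :=
  ofFamily (ι := Empty) (fun _ _ => 0) fun x y => by simp [h]

/-- Disjoint unions. -/
theorem glue [Fintype V] {κ : Type} [Fintype κ] [DecidableEq κ] (lab : V → κ) (hC : 3 ≤ C)
    (h : ∀ k, EmbedsL1 (fun x y : {x // lab x = k} => d x y) C) (M0 : ℝ) :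
    ∃ M, M0 ≤ M ∧ EmbedsL1 (fun x y => if lab x = lab y then d x y else M) C := by
  choose w hw hd using fun k => toCuts (h k)
  set M : ℝ := max M0 (∑ k, ∑ η, w k η) with hM
  have s0 : ∀ k, 0 ≤ ∑ η, w k η := fun k => Finset.sum_nonneg fun η _ => hw k η
  have s1 : ∀ k, ∑ η, w k η ≤ M := fun k =>
    (Finset.single_le_sum (fun k _ => s0 k) (Finset.mem_univ k)).trans (le_max_right _ _)
  refine ⟨M, le_max_left _ _, ofFamily (ι := Σ k : κ, Option ({x // lab x = k} → Bool))
    (fun x j => if h : lab x = j.1 then j.2.elim (M / 2)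
      (fun η => if η ⟨x, h⟩ then w j.1 η else 0) else 0) fun x y => ?_⟩
  have M0 : 0 ≤ M := (s0 (lab x)).trans (s1 _)
  simp only [Fintype.sum_sigma, Fintype.sum_option, Option.elim]
  by_cases e : lab x = lab y
  · rw [if_pos e, Finset.sum_eq_single (lab y) (fun k _ hk => by simp [e, hk.symm]) (by simp)]
    have e1 : ∀ η, |(if η ⟨x, e⟩ then w (lab y) η else 0) - if η ⟨y, rfl⟩ then w (lab y) η else 0| =
        w (lab y) η * sp η ⟨x, e⟩ ⟨y, rfl⟩ := fun η => by
      unfold sp
      cases η ⟨x, e⟩ <;> cases η ⟨y, rfl⟩ <;> simp [abs_of_nonneg (hw _ η)]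
    simp only [dif_pos e, dite_true, sub_self, abs_zero, zero_add, e1]
    rw [show ∑ η, w (lab y) η * sp η ⟨x, e⟩ ⟨y, rfl⟩ = cs (w (lab y)) ⟨x, e⟩ ⟨y, rfl⟩ from
      Finset.sum_congr (by ext; simp) fun _ _ => rfl]
    exact hd (lab y) ⟨x, e⟩ ⟨y, rfl⟩
  · have e1 : ∀ z, 0 ≤ ∑ η, |if η ⟨z, rfl⟩ then w (lab z) η else 0| ∧
        ∑ η, |if η ⟨z, rfl⟩ then w (lab z) η else 0| ≤ M := fun z =>
      ⟨Finset.sum_nonneg fun _ _ => abs_nonneg _, le_trans (Finset.sum_le_sum fun η _ => by
        split_ifs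
        · exact (abs_of_nonneg (hw _ η)).le
        · simpa using hw _ η) (s1 (lab z))⟩
    rw [if_neg e, ← Finset.sum_subset (Finset.subset_univ {lab x, lab y}) fun k _ hk => by
      simp only [Finset.mem_insert, Finset.mem_singleton, not_or] at hk
      simp [Ne.symm hk.1, Ne.symm hk.2], Finset.sum_pair e]
    simp only [dif_neg e, dif_neg (Ne.symm e), dite_true, sub_zero, zero_sub, abs_neg,
      abs_of_nonneg (show 0 ≤ M / 2 by linarith)]
    constructor <;> nlinarith [e1 x, e1 y]

variable {G : SimpleGraph V} {ℓ : Sym2 V → ℝ}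

/-- The vertices that can be reached from `v` by a walk that avoids `A`. -/
def comp (G : SimpleGraph V) (A : Set V) (v : V) : Set V :=
  {u | ∃ p : G.Walk v u, ∀ z ∈ p.support, z ∉ A}

/-- The lengths on an induced subgraph. -/
def resL (ℓ : Sym2 V → ℝ) (U : Set V) (e : Sym2 U) : ℝ := ℓ (e.map (↑))

theorem resL_pos (hℓ : ∀ e ∈ G.edgeSet, 0 < ℓ e) (U : Set V) :
    ∀ e ∈ (G.induce U).edgeSet, 0 < resL ℓ U e := by
  rintro ⟨x, y⟩ h
  exact hℓ s(x, y) h

theorem lift_walk {U : Set V} {x y : V} (p : G.Walk x y) (h : ∀ z ∈ p.support, z ∈ U) :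
    ∃ q : (G.induce U).Walk ⟨x, h x p.start_mem_support⟩ ⟨y, h y p.end_mem_support⟩,
      (q.edges.map (resL ℓ U)).sum = (p.edges.map ℓ).sum := by
  induction p with
  | nil => exact ⟨.nil, rfl⟩
  | @cons u v _ a p ih =>
    obtain ⟨q, hq⟩ := ih fun z hz => h z (by simp [hz])
    have a' : (G.induce U).Adj ⟨u, h u (by simp)⟩ ⟨v, h v (by simp)⟩ := a
    refine ⟨.cons a' q, ?_⟩
    rw [SimpleGraph.Walk.edges_cons, SimpleGraph.Walk.edges_cons, List.map_cons, List.map_cons,
      List.sum_cons, List.sum_cons, hq]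
    rfl

theorem down_walk {U : Set V} {x y : U} (q : (G.induce U).Walk x y) :
    ∃ p : G.Walk x y, (p.edges.map ℓ).sum = (q.edges.map (resL ℓ U)).sum := by
  induction q with
  | nil => exact ⟨.nil, rfl⟩
  | @cons u v _ a q ih =>
    obtain ⟨p, hp⟩ := ih
    have a' : G.Adj u v := a
    refine ⟨.cons a' p, ?_⟩
    rw [SimpleGraph.Walk.edges_cons, SimpleGraph.Walk.edges_cons, List.map_cons, List.map_cons,
      List.sum_cons, List.sum_cons, hp]
    rfl

theorem comp_self {A : Set V} {v : V} (h : v ∉ A) : v ∈ comp G A v := ⟨.nil, by simpa⟩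

theorem comp_walk {A : Set V} {v u : V} (p : G.Walk v u) (h : ∀ z ∈ p.support, z ∉ A) :
    ∀ z ∈ p.support, z ∈ comp G A v := fun _ hz =>
  ⟨p.takeUntil _ hz, fun z' h' => h z' (p.support_takeUntil_subset_support hz h')⟩

theorem comp_eq {A : Set V} {v u : V} (h : u ∈ comp G A v) : comp G A v = comp G A u := by
  obtain ⟨p, hp⟩ := h
  ext z
  constructor <;> rintro ⟨q, hq⟩
  · refine ⟨p.reverse.append q, fun z hz => ?_⟩
    rcases (SimpleGraph.Walk.mem_support_append_iff _ _).1 hz with h | h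
    · exact hp z (by simpa using h)
    · exact hq z h
  · exact ⟨p.append q, fun z hz => ((SimpleGraph.Walk.mem_support_append_iff _ _).1 hz).elim (hp z) (hq z)⟩

theorem comp_conn {A : Set V} {v : V} (h : v ∉ A) : (G.induce (comp G A v)).Connected := by
  have k : ∀ u : comp G A v, (G.induce (comp G A v)).Reachable ⟨v, comp_self h⟩ u := fun u =>
    let ⟨p, hp⟩ := u.2
    let ⟨q, _⟩ := lift_walk (ℓ := fun _ => 0) p (comp_walk p hp)
    ⟨q⟩
  have : Nonempty (comp G A v) := ⟨⟨v, comp_self h⟩⟩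
  exact ⟨fun x y => (k x).symm.trans (k y)⟩

/-- Adding apices. -/
theorem apex_embed [Fintype V] (hG : G.Connected) (hℓ : ∀ e ∈ G.edgeSet, 0 < ℓ e) (A : Finset V)
    (hC : 3 ≤ C) (h : ∀ v, v ∉ A →
      EmbedsL1 (spDist (G.induce (comp G A v)) (resL ℓ (comp G A v))) C) :
    EmbedsL1 (spDist G ℓ) (240 ^ A.card * C) := by
  let _ := spMetric hG hℓ
  have hd : ∀ x y, spDist G ℓ x y = dist x y := fun _ _ => rfl
  let dU : Set V → V → V → ℝ := fun U x y =>
    if h : x ∈ U ∧ y ∈ U then spDist (G.induce U) (resL ℓ U) ⟨x, h.1⟩ ⟨y, h.2⟩ else 0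
  let lab : V → Set V ⊕ V := fun x => if x ∈ A then .inr x else .inl (comp G A x)
  have l1 : ∀ x U, lab x = .inl U → x ∉ A ∧ comp G A x = U := fun x U e => by
    by_cases hx : x ∈ A <;> simp_all [lab]
  have l2 : ∀ x, x ∈ A → ∀ y, dU (comp G A x) x y = 0 := fun x hx y =>
    dif_neg fun ⟨⟨p, hp⟩, _⟩ => hp x p.start_mem_support hx
  obtain ⟨M, hM, h0⟩ := glue (d := fun x y => dU (comp G A x) x y) lab hC (fun k => by
    rcases k with U | a
    · by_cases hU : Nonempty {x // lab x = .inl U}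
      · obtain ⟨v, hv'⟩ := hU
        obtain ⟨hv, rfl⟩ := l1 v U hv'
        have m : ∀ x : {x // lab x = .inl (comp G A v)}, x.1 ∈ comp G A v := fun x =>
          (l1 x _ x.2).2.subset (comp_self (l1 x _ x.2).1)
        have e : (fun x y : {x // lab x = .inl (comp G A v)} => dU (comp G A x) x y) =
            fun x y => spDist (G.induce (comp G A v)) (resL ℓ _) ⟨x.1, m x⟩ ⟨y.1, m y⟩ := by
          funext x y
          rw [(l1 x _ x.2).2]
          exact dif_pos ⟨m x, m y⟩
        rw [e]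
        exact EmbedsL1.comap (h v hv) fun x : {x // lab x = .inl (comp G A v)} => ⟨x, m x⟩
      · exact emb_zero fun x => (hU ⟨x⟩).elim
    · refine emb_zero fun x y => l2 x ?_ y
      by_contra hx
      simpa [lab, hx] using x.2) (∑ x : V, ∑ y, dist x y)
  have key : ∀ B : Finset V, ∃ d' : V → V → ℝ, EmbedsL1 d' (240 ^ B.card * C) ∧
      (∀ x y, dist x y ≤ d' x y) ∧
      (∀ x y, d' x y ≤ if lab x = lab y then dU (comp G A x) x y else M) ∧
      ∀ a ∈ B, ∀ x y, d' x y ≤ dist x a + dist y a := fun B => by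
    induction B using Finset.induction_on with
    | empty =>
      refine ⟨_, by simpa using h0, fun x y => ?_, fun _ _ => le_rfl, by simp⟩
      split_ifs with e
      · by_cases hx : x ∈ A
        · obtain rfl : x = y := by by_cases hy : y ∈ A <;> simp_all [lab]
          rw [l2 x hx, dist_self]
        · obtain ⟨hy, e'⟩ := l1 y (comp G A x) (by rw [← e]; exact if_neg hx)
          have m : y ∈ comp G A x := e'.subset (comp_self hy)
          have e2 : dU (comp G A x) x y = spDist (G.induce (comp G A x)) (resL ℓ _)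
            ⟨x, comp_self hx⟩ ⟨y, m⟩ := dif_pos ⟨comp_self hx, m⟩
          refine le_trans (le_spDist (comp_conn hx) fun q => ?_) e2.ge
          obtain ⟨p, hp⟩ := down_walk (ℓ := ℓ) q
          exact (spDist_le hℓ p).trans hp.le
      · exact le_trans ((Finset.single_le_sum (f := dist x) (fun _ _ => dist_nonneg)
          (Finset.mem_univ y)).trans
          (Finset.single_le_sum (f := fun x => ∑ y, dist x y)
            (fun _ _ => Finset.sum_nonneg fun _ _ => dist_nonneg) (Finset.mem_univ x))) hM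
    | insert a B ha ih =>
      obtain ⟨d', k1, k2, k3, k4⟩ := ih
      refine ⟨fun x y => min (d' x y) (dist x a + dist y a), ?_,
        fun x y => le_min (k2 x y) (dist_triangle_right x y a),
        fun x y => (min_le_left _ _).trans (k3 x y), fun b hb x y => ?_⟩
      · rw [Finset.card_insert_of_notMem ha, pow_succ', mul_assoc]
        exact cone k1 (one_le_mul_of_one_le_of_one_le (one_le_pow₀ (by norm_num)) (by linarith))
          (fun _ => dist_nonneg) fun x y => (abs_dist_sub_le x y a).trans (k2 x y)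
      · rcases Finset.mem_insert.1 hb with rfl | hb
        · exact min_le_right _ _
        · exact (min_le_left _ _).trans (k4 b hb x y)
  obtain ⟨d', k1, k2, k3, k4⟩ := key A
  have e : spDist G ℓ = d' := by
    funext x y
    refine le_antisymm (k2 x y) (le_spDist hG fun p => ?_)
    by_cases hp : ∀ z ∈ p.support, z ∉ (A : Set V)
    · have hx : x ∉ A := hp x p.start_mem_support
      have hy : y ∉ A := hp y p.end_mem_support
      have e : lab x = lab y := by simp only [lab, hx, hy, if_false, comp_eq ⟨p, hp⟩]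
      obtain ⟨q, hq⟩ := lift_walk (ℓ := ℓ) p (comp_walk p hp)
      refine (k3 x y).trans ((if_pos e).trans_le ?_)
      exact (dif_pos ⟨comp_self hx, ⟨p, hp⟩⟩).trans_le ((spDist_le (resL_pos hℓ _) q).trans hq.le)
    · push Not at hp
      obtain ⟨a, ha, hA⟩ := hp
      have e1 := spDist_le hℓ (p.takeUntil a ha)
      have e2 := spDist_le hℓ (p.dropUntil a ha)
      have e3 := congrArg (fun q => (q.edges.map ℓ).sum) (p.take_spec ha)
      simp only [SimpleGraph.Walk.edges_append, List.map_append, List.sum_append] at e3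
      rw [hd] at e1 e2
      linarith [k4 a hA x y, dist_comm y a]
  rwa [e]

end Vale.Agent.P235.Ap
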