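import Vale.Agent.P235Q.ApGraph

/-! P235: classes of graphs with bounded distortion, unions and apices. -/

open Set Classical

noncomputable section

namespace Vale.Agent.P235.Ap

/-- All connected graphs of the class embed with one constant. -/
def Bdd (P : ∀ V : Type, SimpleGraph V → Prop) : Prop :=
  ∃ C : ℝ, ∀ (V : Type) [Fintype V] (G : SimpleGraph V), G.Connected → P V G →
    ∀ ℓ : Sym2 V → ℝ, (∀ e ∈ G.edgeSet, 0 < ℓ e) → EmbedsL1 (spDist G ℓ) C

theorem emb_mono {V : Type} {G : SimpleGraph V} {ℓ : Sym2 V → ℝ} (hG : G.Connected)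
    (hℓ : ∀ e ∈ G.edgeSet, 0 < ℓ e) {C D : ℝ} (h : C ≤ D) :
    EmbedsL1 (spDist G ℓ) C → EmbedsL1 (spDist G ℓ) D := fun ⟨Ω, m, μ, f, hf⟩ =>
  ⟨Ω, m, μ, f, fun x y => ⟨(hf x y).1, (hf x y).2.trans
    (mul_le_mul_of_nonneg_right h (le_spDist hG fun p => len_nonneg hℓ p))⟩⟩

theorem Bdd.or {P Q : ∀ V : Type, SimpleGraph V → Prop} (h1 : Bdd P) (h2 : Bdd Q) :
    Bdd fun V G => P V G ∨ Q V G := by
  obtain ⟨C, h1⟩ := h1
  obtain ⟨D, h2⟩ := h2
  refine ⟨max C D, fun V _ G hG hp ℓ hl => hp.elim (fun hp => ?_) fun hp => ?_⟩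
  · exact emb_mono hG hl (le_max_left _ _) (h1 V G hG hp ℓ hl)
  · exact emb_mono hG hl (le_max_right _ _) (h2 V G hG hp ℓ hl)

theorem spDist_iso {V W : Type} {G : SimpleGraph V} {H : SimpleGraph W} (φ : G ≃g H)
    (ℓ : Sym2 W → ℝ) (x y : V) :
    spDist G (fun e => ℓ (e.map φ)) x y = spDist H ℓ (φ x) (φ y) := by
  unfold spDist
  congr 1
  ext t
  constructor
  · rintro ⟨p, rfl⟩
    exact ⟨p.map φ.toHom, by simp [SimpleGraph.Walk.edges_map, Function.comp_def]⟩
  · rintro ⟨q, rfl⟩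
    refine ⟨(q.map φ.symm.toHom).copy (by simp) (by simp), ?_⟩
    simp [SimpleGraph.Walk.edges_map, Function.comp_def, Sym2.map_map]

/-- A component of `G - A`, in two ways. -/
def compIso {V : Type} (G : SimpleGraph V) (A : Set V) {v : V} (hv : v ∉ A) :
    ((G.induce Aᶜ).connectedComponentMk ⟨v, hv⟩).toSimpleGraph ≃g G.induce (comp G A v) where
  toFun u := ⟨u.1.1, by
    obtain ⟨q⟩ := SimpleGraph.ConnectedComponent.exact u.2
    refine ⟨(q.map (SimpleGraph.Embedding.induce Aᶜ).toHom).reverse, fun z hz => ?_⟩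
    have hz' : z ∈ (q.map (SimpleGraph.Embedding.induce Aᶜ).toHom).support :=
      List.mem_reverse.1 ((SimpleGraph.Walk.support_reverse _).symm ▸ hz)
    rw [SimpleGraph.Walk.support_map] at hz'
    obtain ⟨w, -, rfl⟩ := List.mem_map.1 hz'
    exact w.2⟩
  invFun u := ⟨⟨u.1, u.2.elim fun p hp => hp _ p.end_mem_support⟩, by
    obtain ⟨p, hp⟩ := u.2
    obtain ⟨q, -⟩ := lift_walk (ℓ := fun _ => 0) (U := Aᶜ) p hp
    exact SimpleGraph.ConnectedComponent.sound ⟨q.reverse⟩⟩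
  left_inv _ := rfl
  right_inv _ := rfl
  map_rel_iff' := Iff.rfl

/-- Adding at most `k` apices to a disjoint union of graphs of the class. -/
theorem Bdd.apex {P : ∀ V : Type, SimpleGraph V → Prop} (h : Bdd P) (k : ℕ) :
    Bdd fun V G => ∃ A : Finset V, A.card ≤ k ∧
      ∀ c : (G.induce (↑A : Set V)ᶜ).ConnectedComponent, P _ c.toSimpleGraph := by
  obtain ⟨C, h⟩ := h
  refine ⟨240 ^ k * max C 3, fun V _ G hG ⟨A, hA, hc⟩ ℓ hl => emb_mono hG hl
    (mul_le_mul_of_nonneg_right (pow_le_pow_right₀ (by norm_num) hA)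
      (le_max_of_le_right (by norm_num))) (apex_embed hG hl A (le_max_right _ _) fun v hv => ?_)⟩
  let φ := compIso G (↑A) (v := v) hv
  have := EmbedsL1.comap (h _ _ (SimpleGraph.ConnectedComponent.connected_toSimpleGraph _) (hc _)
    (fun e => resL ℓ _ (e.map φ)) fun e he => resL_pos hl _ _ (φ.map_mem_edgeSet_iff.2 he)) φ.symm
  simp only [spDist_iso, RelIso.apply_symm_apply] at this
  exact emb_mono (comp_conn hv) (resL_pos hl _) (le_max_left _ _) this

end Vale.Agent.P235.Ap
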